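import Vale.Agent.P207.H266.Comm

/-!
# P207, block PI, instance: the Casimir operator commutes with the flow of the frame bundle
-/

open Filter Topology MeasureTheory Set

noncomputable section

set_option linter.unusedSectionVars false

namespace Vale.Agent.P207.H266

open H395 H571 H442

section Int

variable {ι : Type} [Fintype ι] {N : Type} [TopologicalSpace N] [CompactSpace N]
  [MeasurableSpace N] [BorelSpace N] {μ : Measure N} [IsFiniteMeasure μ] (S : NSys ι N μ)

/-- the integral -/
def intN : S.A →ₗ[ℝ] ℝ where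
  toFun f := ∫ p, (f : C(N, ℝ)) p ∂μ
  map_add' f h := by
    refine integral_add ?_ ?_
    · exact (f : C(N, ℝ)).continuous.integrable_of_hasCompactSupport
        (HasCompactSupport.of_compactSpace _)
    · exact (h : C(N, ℝ)).continuous.integrable_of_hasCompactSupport
        (HasCompactSupport.of_compactSpace _)
  map_smul' c f := integral_const_mul c _

theorem intN_apply (f : S.A) : intN S f = ∫ p, (f : C(N, ℝ)) p ∂μ := rfl

theorem intN_X (a : ι) (f : S.A) : intN S (S.X a f) = 0 := integral_X S a f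

theorem intN_UN (a : ι) (t : ℝ) (f : S.A) : intN S (UN S a t f) = intN S f := by
  have h3 := integral_map (μ := μ) (φ := S.Φ a t) (f := fun p => (f : C(N, ℝ)) p)
    (S.mp a t).measurable.aemeasurable ((f : C(N, ℝ)).continuous.aestronglyMeasurable)
  rw [(S.mp a t).map_eq] at h3
  exact h3.symm

theorem intN_nonneg (f : S.A) : 0 ≤ intN S (f * f) :=
  integral_nonneg fun p => mul_self_nonneg ((f : C(N, ℝ)) p)

end Int

section Fr

variable {n : ℕ} {N : Type} [TopologicalSpace N] [CompactSpace N]
  [MeasurableSpace N] [BorelSpace N] {μ : Measure N} [IsFiniteMeasure μ]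
  [T2Space N] [μ.WeaklyRegular] [μ.IsOpenPosMeasure]

/-- the calculus and the flows of the frame bundle fit together -/
structure Cpt (S : NSys (Fin n ⊕ (Fin n × Fin n)) N μ) (C : FrCalc n S.A) : Prop where
  hor : ∀ i f, C.H i f = S.X (.inl i) f
  ver : ∀ a b f, C.V a b f = S.X (.inr (a, b)) f

variable {S : NSys (Fin n ⊕ (Fin n × Fin n)) N μ} {C : FrCalc n S.A}

namespace Cpt

variable (hC : Cpt S C)

include hC

theorem isInt : C.IsInt (intN S) where
  hor i f := by rw [hC.hor]; exact intN_X S _ f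
  ver a b f := by rw [hC.ver]; exact intN_X S _ f

theorem H_UN (i : Fin n) (t : ℝ) (f : S.A) :
    C.H i (UN S (.inl i) t f) = UN S (.inl i) t (C.H i f) := by
  rw [hC.hor, hC.hor]; exact X_UN S _ t f

/-- the rotations of the other vectors commute with the flow of `H_i` -/
theorem V_UN {a b i : Fin n} (ha : a ≠ i) (hb : b ≠ i) (t : ℝ) (f : S.A) :
    C.V a b (UN S (.inl i) t f) = UN S (.inl i) t (C.V a b f) := by
  rw [hC.ver, hC.ver]
  refine X_comm_UN S (fun g => ?_) t f
  rw [← hC.ver, ← hC.ver, ← hC.hor, ← hC.hor, FrCalc.VH, ac, if_neg hb, if_neg ha]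
  simp

/-- parallel functions are invariant -/
theorem UN_par {i : Fin n} {P : S.A} (h : C.H i P = 0) (t : ℝ) : UN S (.inl i) t P = P := by
  refine UN_eq_self S ?_ t
  rw [← hC.hor]; exact h

/-- the form of the Casimir operator -/
theorem int_cas (f g : S.A) : intN S (C.cas f * g) = -∑ i, intN S (C.H i f * C.H i g) +
    (1 / 4) * ∑ i, ∑ j, ∑ k, ∑ l, intN S (C.R i j k l * (C.V i j f * C.V k l g)) := by
  rw [← hC.isInt.cas_symm]
  unfold FrCalc.cas
  rw [mul_sub, map_sub, mul_smul_comm, map_smul, hC.isInt.lap, hC.isInt.curv, smul_eq_mul]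
  ring

/-- **the Casimir operator commutes with the horizontal flows** -/
theorem cas_UN (hP : C.Par) (i : Fin n) (t : ℝ) (f : S.A) :
    C.cas (UN S (.inl i) t f) = UN S (.inl i) t (C.cas f) := by
  have hL : ∀ f, C.casL (S.X (.inl i) f) = S.X (.inl i) (C.casL f) := by
    intro f
    rw [← hC.hor, ← hC.hor]
    exact (FrCalc.H_cas hP i f).symm
  refine comm_UN_of_form S (L := C.casL) hL
    (Finset.univ : Finset (Fin n ⊕ (Fin n × Fin n × Fin n × Fin n)))
    (Sum.elim (fun i => .inl i) (fun q => .inr (q.1, q.2.1)))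
    (Sum.elim (fun i => .inl i) (fun q => .inr (q.2.2.1, q.2.2.2)))
    (Sum.elim (fun _ => (-1 : ℝ) • 1) (fun q => (1 / 4 : ℝ) • C.R q.1 q.2.1 q.2.2.1 q.2.2.2))
    (fun f g => ?_) t f
  have h1 := hC.int_cas f g
  rw [← FrCalc.casL_apply] at h1
  refine h1.trans ?_
  rw [Fintype.sum_sum_type]
  simp only [Sum.elim_inl, Sum.elim_inr, Fintype.sum_prod_type, ← hC.hor, ← hC.ver]
  congr 1
  · rw [← Finset.sum_neg_distrib]
    refine Finset.sum_congr rfl fun i _ => ?_
    rw [smul_mul_assoc, one_mul, ← neg_one_mul, ← smul_eq_mul, ← map_smul]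
    rfl
  · simp only [Finset.mul_sum]
    refine Finset.sum_congr rfl fun i _ => Finset.sum_congr rfl fun j _ =>
      Finset.sum_congr rfl fun k _ => Finset.sum_congr rfl fun l _ => ?_
    rw [smul_mul_assoc, ← smul_eq_mul (1 / 4 : ℝ), ← map_smul]
    rfl

end Cpt

end Fr

end Vale.Agent.P207.H266
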