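import Vale.Agent.P207.H571.L2Sys
import Vale.Agent.P207.H442.Int

/-!
# P207, block PI, instance: operators which commute with the groups
-/

open Filter Topology MeasureTheory Set
open scoped InnerProductSpace

noncomputable section

set_option linter.unusedSectionVars false

namespace Vale.Agent.P207.H266

open H395 H571 H442

section Abs

variable {ι : Type} [Fintype ι] {H : Type} [NormedAddCommGroup H] [InnerProductSpace ℝ H]
  [CompleteSpace H] (S : HSys ι H)

/-- a function with derivative zero is constant -/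
theorem const_of_deriv {E : Type*} [NormedAddCommGroup E] [NormedSpace ℝ E] {f : ℝ → E}
    (h : ∀ t, HasDerivAt f 0 t) (s t : ℝ) : f s = f t :=
  is_const_of_deriv_eq_zero (fun t => (h t).differentiableAt) (fun t => (h t).deriv) s t

/-- derivations which commute on smooth vectors: the derivation commutes with the group -/
theorem X_comm_UA {a j : ι} (h : ∀ u : S.A, S.X a (S.X j u) = S.X j (S.X a u)) (t : ℝ)
    (u : S.A) : S.X a (S.UA j t u) = S.UA j t (S.X a u) := by
  have h1 : ∀ s, HasDerivAt (fun t => S.U j (-t) (S.X a (S.UA j t u) : H)) 0 s := by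
    intro s
    have h2 := S.hasDerivAt_U_comp j (v := fun t => S.X a (S.UA j t u)) (S.hasDerivAt_XU a j u s)
    rw [h, sub_self] at h2
    exact h2
  have h3 := const_of_deriv h1 t 0
  simp only [neg_zero, S.U_zero, S.UA_zero] at h3
  apply Subtype.ext
  rw [HSys.coe_UA]
  have h4 : S.U j t (S.U j (-t) (S.X a (S.UA j t u) : H)) = S.U j t (S.X a u : H) := by
    rw [h3]; rfl
  rwa [S.U_U_neg] at h4

/-- Operators whose form is a combination of first derivatives commute with the groups. -/
theorem comm_UA_of_form {j : ι} {L : S.A →ₗ[ℝ] S.A} (hL : ∀ u, L (S.X j u) = S.X j (L u))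
    {κ : Type*} (s : Finset κ) (a b : κ → ι) (P : κ → H →L[ℝ] H)
    (hq : ∀ u v : S.A, ⟪(L u : H), (v : H)⟫_ℝ =
      ∑ k ∈ s, ⟪P k (S.X (a k) u : H), (S.X (b k) v : H)⟫_ℝ)
    (t : ℝ) (u : S.A) : L (S.UA j t u) = S.UA j t (L u) := by
  have key : ∀ v : S.A, ⟪(L (S.UA j t u) : H), S.U j t v⟫_ℝ = ⟪(L u : H), (v : H)⟫_ℝ := by
    intro v
    have h1 : ∀ r, HasDerivAt (fun r => ∑ k ∈ s, ⟪P k (S.X (a k) (S.UA j r u) : H),
        (S.X (b k) (S.UA j r v) : H)⟫_ℝ) 0 r := by
      intro r
      have h2 := HasDerivAt.fun_sum (u := s) fun k _ =>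
        (((P k).hasFDerivAt.comp_hasDerivAt r (S.hasDerivAt_XU (a k) j u r)).inner ℝ
          (S.hasDerivAt_XU (b k) j v r))
      have e : ∑ k ∈ s, (⟪P k (S.X (a k) (S.UA j r u) : H),
          (S.X (b k) (S.X j (S.UA j r v)) : H)⟫_ℝ +
          ⟪P k (S.X (a k) (S.X j (S.UA j r u)) : H), (S.X (b k) (S.UA j r v) : H)⟫_ℝ) = 0 := by
        rw [Finset.sum_add_distrib, ← hq, ← hq, hL, S.skew]
        ring
      simp only [Function.comp_apply] at h2
      rw [e] at h2
      exact h2
    have h3 := const_of_deriv h1 t 0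
    simp only [← hq, S.UA_zero] at h3
    exact h3
  apply Subtype.ext
  rw [HSys.coe_UA]
  refine (S.dense.eq_of_inner_left (𝕜 := ℝ) fun w hw => ?_)
  have h5 := key (S.UA j (-t) ⟨w, hw⟩)
  rw [HSys.coe_UA, S.U_U_neg] at h5
  rw [h5, S.inner_U_left]

end Abs

section Sys

variable {ι : Type} [Fintype ι] {N : Type} [TopologicalSpace N] [CompactSpace N]
  [MeasurableSpace N] [BorelSpace N] {μ : Measure N} [IsFiniteMeasure μ]
  [T2Space N] [μ.WeaklyRegular] [μ.IsOpenPosMeasure] (S : NSys ι N μ)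

/-- the class of a function composed with the flow -/
theorem cls_UN (j : ι) (t : ℝ) (f : S.A) :
    cls S (UN S j t f) = (toHSys S).UA j t (cls S f) := by
  apply Subtype.ext
  exact (UL_toL S j t _).symm

/-- commuting derivations -/
theorem X_comm_UN {a j : ι} (h : ∀ f : S.A, S.X a (S.X j f) = S.X j (S.X a f)) (t : ℝ)
    (f : S.A) : S.X a (UN S j t f) = UN S j t (S.X a f) := by
  apply (cls S).injective
  rw [← toHSys_X, cls_UN, cls_UN, ← toHSys_X]
  refine X_comm_UA (toHSys S) (fun u => ?_) t _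
  obtain ⟨g, rfl⟩ := exists_cls S u
  simp only [toHSys_X, h]
  rfl

/-- the derivation of the flow itself -/
theorem X_UN (j : ι) (t : ℝ) (f : S.A) : S.X j (UN S j t f) = UN S j t (S.X j f) :=
  X_comm_UN S (fun _ => rfl) t f

/-- functions with derivative zero along the flow are invariant -/
theorem UN_eq_self {j : ι} {f : S.A} (h : S.X j f = 0) (t : ℝ) : UN S j t f = f := by
  apply Subtype.ext
  ext p
  have h1 : ∀ s, HasDerivAt (fun t => (f : C(N, ℝ)) (S.Φ j t p)) 0 s := by
    intro s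
    have h2 := hasDerivAt_flow S j f p s
    rw [h] at h2
    exact h2
  have h3 := const_of_deriv h1 t 0
  rw [S.zero] at h3
  exact h3

theorem UN_add' (j : ι) (t : ℝ) (f g : S.A) : UN S j t (f + g) = UN S j t f + UN S j t g := rfl

theorem UN_mul (j : ι) (t : ℝ) (f g : S.A) : UN S j t (f * g) = UN S j t f * UN S j t g := rfl

theorem UN_smul (j : ι) (t : ℝ) (c : ℝ) (f : S.A) : UN S j t (c • f) = c • UN S j t f := rfl

/-- composition with the flow as a homomorphism of algebras -/
def UH (j : ι) (t : ℝ) : S.A →ₐ[ℝ] S.A where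
  toFun := UN S j t
  map_one' := rfl
  map_mul' _ _ := rfl
  map_zero' := rfl
  map_add' _ _ := rfl
  commutes' _ := rfl

@[simp] theorem UH_apply (j : ι) (t : ℝ) (f : S.A) : UH S j t f = UN S j t f := rfl

/-- operators whose form is a combination of first derivatives -/
theorem comm_UN_of_form {j : ι} {L : S.A →ₗ[ℝ] S.A} (hL : ∀ f, L (S.X j f) = S.X j (L f))
    {κ : Type*} (s : Finset κ) (a b : κ → ι) (P : κ → S.A)
    (hq : ∀ f g : S.A, ∫ p, ((L f * g : S.A) : C(N, ℝ)) p ∂μ =
      ∑ k ∈ s, ∫ p, ((P k * (S.X (a k) f * S.X (b k) g) : S.A) : C(N, ℝ)) p ∂μ)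
    (t : ℝ) (f : S.A) : L (UN S j t f) = UN S j t (L f) := by
  apply (cls S).injective
  set L' : (toHSys S).A →ₗ[ℝ] (toHSys S).A :=
    (cls S).toLinearMap ∘ₗ L ∘ₗ (cls S).symm.toLinearMap with hL'
  have hc : ∀ g, L' (cls S g) = cls S (L g) := fun g => by
    change cls S (L ((cls S).symm (cls S g))) = _
    rw [LinearEquiv.symm_apply_apply]
  rw [cls_UN, ← hc, ← hc, cls_UN]
  refine comm_UA_of_form (toHSys S) (fun u => ?_) s a b (fun k => mulL (P k : C(N, ℝ)))
    (fun u v => ?_) t _
  · obtain ⟨g, rfl⟩ := exists_cls S u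
    simp only [toHSys_X, hc, hL]
    rfl
  · obtain ⟨g, rfl⟩ := exists_cls S u
    obtain ⟨h, rfl⟩ := exists_cls S v
    simp only [toHSys_X, hc, coe_cls, mulL_toL]
    rw [inner_toL]
    refine (hq g h).trans (Finset.sum_congr rfl fun k _ => ?_)
    rw [inner_toL]
    refine integral_congr_ae (Eventually.of_forall fun p => ?_)
    simp only [Subalgebra.coe_mul, ContinuousMap.mul_apply]
    ring

end Sys

end Vale.Agent.P207.H266
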