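import Vale.Agent.P207.H266.Cas
import Vale.Agent.P207.H662.Inst

/-!
# P207, block PI, instance: the geodesic flow on the functions of the unit tangent bundle
-/

open Filter Topology MeasureTheory Set

noncomputable section

set_option linter.unusedSectionVars false

namespace Vale.Agent.P207.H266

open H395 H571 H662

section Form

variable {ι : Type} [Fintype ι] {N : Type} [TopologicalSpace N] [CompactSpace N]
  [MeasurableSpace N] [BorelSpace N] {μ : Measure N} [IsFiniteMeasure μ] (S : NSys ι N μ)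

theorem hasDerivAt_XUN_at (a b : ι) (f : S.A) (s : ℝ) :
    HasDerivAt (fun t => (S.X a (UN S b t f) : C(N, ℝ)))
      (S.X a (UN S b s (S.X b f)) : C(N, ℝ)) s := by
  have h1 := hasDerivAt_XUN S a b (UN S b s f)
  have h2 : ∀ t, UN S b t (UN S b s f) = UN S b (t + s) f := by
    intro t
    apply Subtype.ext
    ext p
    change (f : C(N, ℝ)) (S.Φ b s (S.Φ b t p)) = (f : C(N, ℝ)) (S.Φ b (t + s) p)
    rw [add_comm, S.add]
  have h4 : S.X b (UN S b s f) = UN S b s (S.X b f) := by
    apply Subtype.ext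
    ext p
    have e1 := hasDerivAt_flow S b f p s
    have e2 := S.der b (UN S b s f) p
    have e3 : (fun t => ((UN S b s f : S.A) : C(N, ℝ)) (S.Φ b t p)) =
        fun t => (f : C(N, ℝ)) (S.Φ b (t + s) p) := by
      funext t
      change (f : C(N, ℝ)) (S.Φ b s (S.Φ b t p)) = _
      rw [add_comm, S.add]
    rw [e3] at e2
    have e4 : HasDerivAt (fun t => (f : C(N, ℝ)) (S.Φ b (t + s) p))
        ((S.X b f : C(N, ℝ)) (S.Φ b s p)) 0 := by
      have e5 : HasDerivAt (fun t => (f : C(N, ℝ)) (S.Φ b t p))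
        ((S.X b f : C(N, ℝ)) (S.Φ b s p)) (0 + s) := by rw [zero_add]; exact e1
      exact e5.comp_add_const 0 s
    exact e2.unique e4
  rw [h4] at h1
  have h3 : HasDerivAt (fun t => (S.X a (UN S b (t - s + s) f) : C(N, ℝ)))
      (S.X a (UN S b s (S.X b f)) : C(N, ℝ)) s := by
    have h5 : HasDerivAt (fun t => (S.X a (UN S b (t + s) f) : C(N, ℝ)))
        (S.X a (UN S b s (S.X b f)) : C(N, ℝ)) (s - s) := by
      rw [sub_self]
      simpa only [h2] using h1
    exact h5.comp_sub_const s s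
  simpa only [sub_add_cancel] using h3

/-- the derivative of the integral of a product of curves -/
theorem hasDerivAt_intN {F G : ℝ → S.A} {F' G' P : S.A} {s : ℝ}
    (hF : HasDerivAt (fun t => (F t : C(N, ℝ))) (F' : C(N, ℝ)) s)
    (hG : HasDerivAt (fun t => (G t : C(N, ℝ))) (G' : C(N, ℝ)) s) :
    HasDerivAt (fun t => intN S (P * (F t * G t)))
      (intN S (P * (F' * G s)) + intN S (P * (F s * G'))) s := by
  have h1 : ∀ f g : S.A, intN S (P * (f * g)) =
      inner ℝ (toL μ ((P : C(N, ℝ)) * (f : C(N, ℝ)))) (toL μ (g : C(N, ℝ))) := by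
    intro f g
    rw [inner_toL, intN_apply]
    refine integral_congr_ae (Eventually.of_forall fun p => ?_)
    simp only [Subalgebra.coe_mul, ContinuousMap.mul_apply]
    ring
  have h2 : HasDerivAt (fun t => toL μ ((P : C(N, ℝ)) * (F t : C(N, ℝ))))
      (toL μ ((P : C(N, ℝ)) * (F' : C(N, ℝ)))) s := by
    have h3 := hF.const_mul (P : C(N, ℝ))
    exact (toL μ).hasFDerivAt.comp_hasDerivAt s h3
  have h4 : HasDerivAt (fun t => toL μ (G t : C(N, ℝ))) (toL μ (G' : C(N, ℝ))) s :=
    (toL μ).hasFDerivAt.comp_hasDerivAt s hG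
  have h5 := h2.inner ℝ h4
  simp only [h1]
  rw [add_comm]
  exact h5

/-- the derivative of a form along the flow -/
theorem hasDerivAt_form {j : ι} {κ : Type*} (s : Finset κ) (a b : κ → ι) (P : κ → S.A)
    (f g : S.A) (t : ℝ) :
    HasDerivAt (fun t => ∑ k ∈ s, intN S (P k * (S.X (a k) (UN S j t f) *
        S.X (b k) (UN S j t g))))
      (∑ k ∈ s, (intN S (P k * (S.X (a k) (UN S j t (S.X j f)) * S.X (b k) (UN S j t g))) +
        intN S (P k * (S.X (a k) (UN S j t f) * S.X (b k) (UN S j t (S.X j g)))))) t :=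
  HasDerivAt.fun_sum fun k _ => hasDerivAt_intN S (hasDerivAt_XUN_at S (a k) j f t)
    (hasDerivAt_XUN_at S (b k) j g t)

end Form

variable {ι : Type} [Fintype ι] {N : Type} [TopologicalSpace N] [CompactSpace N]
  [MeasurableSpace N] [BorelSpace N] {μ : Measure N} [IsFiniteMeasure μ]
  [T2Space N] [μ.WeaklyRegular] [μ.IsOpenPosMeasure]

/-- the calculus of the unit tangent bundle consists of derivations along flows -/
structure Fit {m : ℕ} (S : NSys ι N μ) (T : Sys m S.A) where
  x : ι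
  v : Fin m → ι
  h : Fin m → ι
  r : Fin m → Fin m → ι
  hX : ∀ f, T.X f = S.X x f
  hv : ∀ i f, T.v i f = S.X (v i) f
  hh : ∀ i f, T.h i f = S.X (h i) f
  hr : ∀ i k f, T.r i k f = S.X (r i k) f

namespace Fit

variable {m : ℕ} {S : NSys ι N μ} {T : Sys m S.A} (F : Fit S T)

include F

theorem isInt : T.IsInt (intN S) where
  X f := by rw [F.hX]; exact intN_X S _ f
  v i f := by rw [F.hv]; exact intN_X S _ f
  h i f := by rw [F.hh]; exact intN_X S _ f
  pos f := intN_nonneg S f

theorem UN_mem {f : S.A} (hf : f ∈ T.B) (t : ℝ) : UN S F.x t f ∈ T.B := by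
  intro i k
  rw [F.hr, X_comm_UN S (fun g => ?_) t f, ← F.hr, hf i k]
  · rfl
  · rw [← F.hX, ← F.hr, ← F.hr, ← F.hX, T.rX]

/-- the geodesic flow on functions of the unit tangent bundle -/
def U (t : ℝ) : T.B →ₗ[ℝ] T.B :=
  ((UH S F.x t).toLinearMap).restrict fun _ hf => F.UN_mem hf t

omit F in
@[simp] theorem coe_U (F : Fit S T) (t : ℝ) (f : T.B) : ((F.U t f : T.B) : S.A) =
    UN S F.x t (f : S.A) := rfl

theorem U_zero (f : T.B) : F.U 0 f = f := Subtype.ext (UN_zero S F.x _)

theorem U_add (s t : ℝ) (f : T.B) : F.U (s + t) f = F.U s (F.U t f) := by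
  apply Subtype.ext
  apply Subtype.ext
  ext p
  change ((f : S.A) : C(N, ℝ)) (S.Φ F.x (s + t) p) =
    ((f : S.A) : C(N, ℝ)) (S.Φ F.x t (S.Φ F.x s p))
  rw [add_comm, S.add]

theorem iso (t : ℝ) (f g : T.B) : T.ipB (intN S) (F.U t f) (F.U t g) = T.ipB (intN S) f g := by
  rw [Sys.ipB_apply, Sys.ipB_apply, coe_U, coe_U, ← UN_mul, intN_UN]

theorem X_U (t : ℝ) (f : T.B) : T.XB (F.U t f) = F.U t (T.XB f) := by
  apply Subtype.ext
  rw [Sys.coe_XB, coe_U, coe_U, Sys.coe_XB, F.hX, F.hX]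
  exact X_UN S _ t _

theorem UN_P (t : ℝ) {P : S.A} (hP : T.X P = 0) : UN S F.x t P = P :=
  UN_eq_self S (by rw [← F.hX]; exact hP) t

/-- the derivative of the pairing -/
theorem der (f g : T.B) (s : ℝ) : HasDerivAt (fun t => T.ipB (intN S) (F.U t f) g)
    (T.ipB (intN S) (F.U s (T.XB f)) g) s := by
  have h1 := hasDerivAt_UC S F.x (f : S.A) s
  have h2 := hasDerivAt_intN S (F := fun t => UN S F.x t (f : S.A)) (G := fun _ => (g : S.A))
    (F' := UN S F.x s (S.X F.x (f : S.A))) (G' := 0) (P := 1) (s := s) h1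
    (by
      have h3 := hasDerivAt_const s ((g : S.A) : C(N, ℝ))
      exact h3)
  simp only [one_mul, mul_zero, map_zero, add_zero] at h2
  have e : (T.ipB (intN S) (F.U s (T.XB f)) g) = intN S (UN S F.x s (S.X F.x (f : S.A)) * g) := by
    rw [Sys.ipB_apply, coe_U, Sys.coe_XB, F.hX]
  rw [e]
  exact h2

variable {Q : Fin m → Fin m → S.A} {κ q : ℝ} (hQ : T.IsProj Q κ q)

include hQ in
/-- the derivative of the form `⟨Δ f, g⟩` along the flow -/
theorem derD (f g : T.B) (s : ℝ) :
    HasDerivAt (fun t => intN S (T.Dl Q (F.U t f) * (F.U t g : T.B)))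
      (intN S (T.Dl Q (F.U s (T.XB f)) * (F.U s g : T.B)) +
        intN S (T.Dl Q (F.U s f) * (F.U s (T.XB g) : T.B))) s := by
  have e : ∀ f g : S.A, intN S (T.Dl Q f * g) = ∑ k ∈ (Finset.univ : Finset (Fin m × Fin m)),
      intN S (Q k.1 k.2 * (S.X (F.v k.1) f * S.X (F.v k.2) g)) := by
    intro f g
    rw [hQ.Dl_symm F.isInt, ← hQ.int_v_v F.isInt, map_sum, Fintype.sum_prod_type]
    refine Finset.sum_congr rfl fun i _ => ?_
    rw [map_sum]
    refine Finset.sum_congr rfl fun j _ => ?_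
    rw [F.hv, F.hv]
  have h1 := hasDerivAt_form S (j := F.x) (Finset.univ : Finset (Fin m × Fin m))
    (fun k => F.v k.1) (fun k => F.v k.2) (fun k => Q k.1 k.2) (f : S.A) (g : S.A) s
  rw [Finset.sum_add_distrib] at h1
  simp only [e, coe_U, Sys.coe_XB, F.hX]
  exact h1

include hQ in
/-- the derivative of the form `⟨E f, g⟩` along the flow -/
theorem derE (f g : T.B) (s : ℝ) :
    HasDerivAt (fun t => intN S ((F.U t f : T.B) * T.El Q (F.U t g)))
      (intN S ((F.U s (T.XB f) : T.B) * T.El Q (F.U s g)) +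
        intN S ((F.U s f : T.B) * T.El Q (F.U s (T.XB g)))) s := by
  have e : ∀ f g : S.A, intN S (f * T.El Q g) = ∑ k ∈ (Finset.univ : Finset (Fin m × Fin m)),
      intN S ((-1 : ℝ) • Q k.1 k.2 * (S.X (F.v k.1) f * S.X (F.h k.2) g)) := by
    intro f g
    have h1 := hQ.int_v_h F.isInt f g
    rw [map_sum] at h1
    rw [← neg_inj, ← h1, Fintype.sum_prod_type, ← Finset.sum_neg_distrib]
    refine Finset.sum_congr rfl fun i _ => ?_
    rw [map_sum, ← Finset.sum_neg_distrib]
    refine Finset.sum_congr rfl fun j _ => ?_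
    rw [F.hv, F.hh, smul_mul_assoc, map_smul]
    simp
  have h1 := hasDerivAt_form S (j := F.x) (Finset.univ : Finset (Fin m × Fin m))
    (fun k => F.v k.1) (fun k => F.h k.2) (fun k => (-1 : ℝ) • Q k.1 k.2) (f : S.A) (g : S.A) s
  rw [Finset.sum_add_distrib] at h1
  simp only [e, coe_U, Sys.coe_XB, F.hX]
  exact h1

include hQ in
/-- the derivative of the form `⟨S f, g⟩` along the flow -/
theorem derS (f g : T.B) (s : ℝ) :
    HasDerivAt (fun t => intN S (T.Sl Q (F.U t f) * (F.U t g : T.B)))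
      (intN S (T.Sl Q (F.U s (T.XB f)) * (F.U s g : T.B)) +
        intN S (T.Sl Q (F.U s f) * (F.U s (T.XB g) : T.B))) s := by
  have e : ∀ f g : S.A, intN S (T.Sl Q f * g) = ∑ k ∈ (Finset.univ : Finset (Fin m × Fin m)),
      intN S (Q k.1 k.2 * (S.X (F.h k.1) f * S.X (F.h k.2) g)) := by
    intro f g
    rw [hQ.Sl_symm F.isInt, ← hQ.int_h_h F.isInt, map_sum, Fintype.sum_prod_type]
    refine Finset.sum_congr rfl fun i _ => ?_
    rw [map_sum]
    refine Finset.sum_congr rfl fun j _ => ?_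
    rw [F.hh, F.hh]
  have h1 := hasDerivAt_form S (j := F.x) (Finset.univ : Finset (Fin m × Fin m))
    (fun k => F.h k.1) (fun k => F.h k.2) (fun k => Q k.1 k.2) (f : S.A) (g : S.A) s
  rw [Finset.sum_add_distrib] at h1
  simp only [e, coe_U, Sys.coe_XB, F.hX]
  exact h1

/-- the pairing is definite -/
theorem ip_definite {f : T.B} (h : T.ipB (intN S) f f = 0) : f = 0 := by
  rw [Sys.ipB_apply, intN_apply] at h
  have hc : Continuous fun p : N => ((f : S.A) : C(N, ℝ)) p * ((f : S.A) : C(N, ℝ)) p :=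
    ((f : S.A) : C(N, ℝ)).continuous.mul ((f : S.A) : C(N, ℝ)).continuous
  by_contra hne
  have h3 : ∃ p, ((f : S.A) : C(N, ℝ)) p ≠ 0 := by
    by_contra hcon
    push Not at hcon
    apply hne
    apply Subtype.ext
    apply Subtype.ext
    ext p
    exact hcon p
  obtain ⟨p, hp⟩ := h3
  have h4 := hc.integral_pos_of_hasCompactSupport_nonneg_nonzero (μ := μ)
    (HasCompactSupport.of_compactSpace _) (fun p => mul_self_nonneg _) (mul_self_ne_zero.2 hp)
  exact absurd h h4.ne'

theorem ip_ext {f g : T.B} (h : ∀ k, T.ipB (intN S) f k = T.ipB (intN S) g k) : f = g := by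
  rw [← sub_eq_zero]
  refine F.ip_definite ?_
  have h1 : T.ipB (intN S) (f - g) (f - g) =
      T.ipB (intN S) f (f - g) - T.ipB (intN S) g (f - g) := by
    rw [← LinearMap.sub_apply, ← map_sub]
  rw [h1, h, sub_self]

include hQ in
/-- the operators `C` commute with the flow -/
theorem C_U (t : ℝ) (f : T.B) : (Sys.lad1 hQ F.isInt).C (F.U t f) =
    F.U t ((Sys.lad1 hQ F.isInt).C f) := by
  set L := Sys.lad1 hQ F.isInt with hL
  have hC : ∀ f g : T.B, T.ipB (intN S) (L.C f) g =
      intN S (T.Sl Q f * (g : S.A)) - κ * intN S (T.Dl Q f * (g : S.A)) := by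
    intro f g
    rw [Lad1.C_apply, map_sub, map_smul, LinearMap.sub_apply, LinearMap.smul_apply, smul_eq_mul]
    rfl
  have key : ∀ g : T.B, T.ipB (intN S) (L.C (F.U t f)) (F.U t g) =
      T.ipB (intN S) (L.C f) g := by
    intro g
    have h1 : ∀ s, HasDerivAt (fun t => T.ipB (intN S) (L.C (F.U t f)) (F.U t g)) 0 s := by
      intro s
      have h2 := (F.derS hQ f g s).sub ((F.derD hQ f g s).const_mul κ)
      simp only [hC]
      refine h2.congr_deriv ?_
      have h3 := (T.lad F.isInt).skew (L.C (F.U s f)) (F.U s g)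
      have h3' : T.ipB (intN S) (T.XB (L.C (F.U s f))) (F.U s g) =
        - T.ipB (intN S) (L.C (F.U s f)) (T.XB (F.U s g)) := h3
      rw [L.X_C, F.X_U, F.X_U, hC, hC] at h3'
      linarith
    have h4 := const_of_deriv h1 t 0
    simp only [F.U_zero] at h4
    exact h4
  refine F.ip_ext fun k => ?_
  have h5 := key (F.U (-t) k)
  have h6 : F.U t (F.U (-t) k) = k := by
    rw [← F.U_add, add_neg_cancel, F.U_zero]
  rw [h6] at h5
  rw [h5, ← F.iso t, h6]

/-- the operator `Λ` commutes with the flow -/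
theorem Lam_U (t : ℝ) (f : T.B) : (T.lad F.isInt).Lam (F.U t f) =
    F.U t ((T.lad F.isInt).Lam f) := by
  rw [Lad.Lam_apply, Lad.Lam_apply, map_add, map_add, map_neg]
  congr 1
  · congr 1
    · congr 1
      change T.XB (T.XB (F.U t f)) = F.U t (T.XB (T.XB f))
      rw [F.X_U, F.X_U]
    · exact F.C_U T.isProj_Q t f
  · exact F.C_U T.isProj_P t f

end Fit

end Vale.Agent.P207.H266
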