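import Vale.Agent.P207.H266.FlwI
import Vale.Agent.P207.H391.PiLad
import Vale.Agent.P207.H662.QF3

/-!
# P207, block PI, instance: the flow of the ladder algebra (with a scaling constant)
-/

open Filter Topology MeasureTheory Set

noncomputable section

set_option linter.unusedSectionVars false

namespace Vale.Agent.P207.H266

open H395 H571 H662 H391 H442

variable {ι : Type} [Fintype ι] {N : Type} [TopologicalSpace N] [CompactSpace N]
  [MeasurableSpace N] [BorelSpace N] {μ : Measure N} [IsFiniteMeasure μ]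
  [T2Space N] [μ.WeaklyRegular] [μ.IsOpenPosMeasure]

/-- the calculus of the unit tangent bundle consists of derivations along flows, the horizontal
ones multiplied by `c` -/
structure FitC {m : ℕ} (S : NSys ι N μ) (T : Sys m S.A) (c : ℝ) where
  x : ι
  v : Fin m → ι
  h : Fin m → ι
  r : Fin m → Fin m → ι
  hX : ∀ f, T.X f = c • S.X x f
  hv : ∀ i f, T.v i f = S.X (v i) f
  hh : ∀ i f, T.h i f = c • S.X (h i) f
  hr : ∀ i k f, T.r i k f = S.X (r i k) f

namespace FitC

variable {m : ℕ} {S : NSys ι N μ} {T : Sys m S.A} {c : ℝ} (F : FitC S T c)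

include F

theorem isInt : T.IsInt (intN S) where
  X f := by rw [F.hX, map_smul, intN_X, smul_zero]
  v i f := by rw [F.hv]; exact intN_X S _ f
  h i f := by rw [F.hh, map_smul, intN_X, smul_zero]
  pos f := intN_nonneg S f

theorem UN_mem (hc : c ≠ 0) {f : S.A} (hf : f ∈ T.B) (t : ℝ) : UN S F.x t f ∈ T.B := by
  intro i k
  rw [F.hr, X_comm_UN S (fun g => ?_) t f, ← F.hr, hf i k]
  · rfl
  · have h1 := T.rX i k g
    rw [F.hX, F.hX, F.hr, F.hr, Derivation.map_smul] at h1
    have h2 := congrArg (fun z => c⁻¹ • z) h1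
    simp only [smul_smul, inv_mul_cancel₀ hc, one_smul] at h2
    exact h2

/-- the geodesic flow on functions of the unit tangent bundle -/
def U (hc : c ≠ 0) (t : ℝ) : T.B →ₗ[ℝ] T.B :=
  ((UH S F.x (c * t)).toLinearMap).restrict fun _ hf => F.UN_mem hc hf (c * t)

omit F in
@[simp] theorem coe_U (F : FitC S T c) (hc : c ≠ 0) (t : ℝ) (f : T.B) :
    ((F.U hc t f : T.B) : S.A) = UN S F.x (c * t) (f : S.A) := rfl

variable (hc : c ≠ 0)

theorem U_zero (f : T.B) : F.U hc 0 f = f := by
  apply Subtype.ext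
  rw [coe_U, mul_zero, UN_zero]

theorem U_add (s t : ℝ) (f : T.B) : F.U hc (s + t) f = F.U hc s (F.U hc t f) := by
  apply Subtype.ext
  apply Subtype.ext
  ext p
  change ((f : S.A) : C(N, ℝ)) (S.Φ F.x (c * (s + t)) p) =
    ((f : S.A) : C(N, ℝ)) (S.Φ F.x (c * t) (S.Φ F.x (c * s) p))
  rw [mul_add, add_comm, S.add]

theorem iso (t : ℝ) (f g : T.B) :
    T.ipB (intN S) (F.U hc t f) (F.U hc t g) = T.ipB (intN S) f g := by
  rw [Sys.ipB_apply, Sys.ipB_apply, coe_U, coe_U, ← UN_mul, intN_UN]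

theorem X_U (t : ℝ) (f : T.B) : T.XB (F.U hc t f) = F.U hc t (T.XB f) := by
  apply Subtype.ext
  rw [Sys.coe_XB, coe_U, coe_U, Sys.coe_XB, F.hX, F.hX, UN_smul]
  congr 1
  exact X_UN S _ _ _

/-- the derivative along the scaled flow -/
theorem hasDerivAt_UNc (f : S.A) (s : ℝ) :
    HasDerivAt (fun t => (UN S F.x (c * t) f : C(N, ℝ))) (UN S F.x (c * s) (T.X f) : C(N, ℝ)) s := by
  have h1 := hasDerivAt_UC S F.x f (c * s)
  have h2 : HasDerivAt (fun t : ℝ => c * t) c s := by simpa using (hasDerivAt_id s).const_mul c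
  have h3 := HasDerivAt.scomp s h1 h2
  have e : (UN S F.x (c * s) (T.X f) : C(N, ℝ)) = c • UC S F.x (c * s) (S.X F.x f : C(N, ℝ)) := by
    rw [F.hX]; rfl
  rw [e]
  exact h3

theorem hasDerivAt_XUNc (a : ι) (f : S.A) (s : ℝ) :
    HasDerivAt (fun t => (S.X a (UN S F.x (c * t) f) : C(N, ℝ)))
      (S.X a (UN S F.x (c * s) (T.X f)) : C(N, ℝ)) s := by
  have h1 := hasDerivAt_XUN_at S a F.x f (c * s)
  have h2 : HasDerivAt (fun t : ℝ => c * t) c s := by simpa using (hasDerivAt_id s).const_mul c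
  have h3 := HasDerivAt.scomp s h1 h2
  have e : (S.X a (UN S F.x (c * s) (T.X f)) : C(N, ℝ)) =
      c • (S.X a (UN S F.x (c * s) (S.X F.x f)) : C(N, ℝ)) := by
    rw [F.hX, UN_smul, Derivation.map_smul]; rfl
  rw [e]
  exact h3

/-- the derivative of the pairing -/
theorem der (f g : T.B) (s : ℝ) : HasDerivAt (fun t => T.ipB (intN S) (F.U hc t f) g)
    (T.ipB (intN S) (F.U hc s (T.XB f)) g) s := by
  have h2 := hasDerivAt_intN S (F := fun t => UN S F.x (c * t) (f : S.A))
    (G := fun _ => (g : S.A)) (F' := UN S F.x (c * s) (T.X (f : S.A))) (G' := 0) (P := 1)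
    (s := s) (F.hasDerivAt_UNc (f : S.A) s) (hasDerivAt_const s ((g : S.A) : C(N, ℝ)))
  simp only [one_mul, mul_zero, map_zero, add_zero] at h2
  exact h2

/-- the derivative of a form of first order along the flow -/
theorem derForm {b : S.A → S.A → ℝ} {κ : Type*} (s : Finset κ) (a e : κ → ι) (P : κ → S.A)
    (hb : ∀ f g, b f g = ∑ k ∈ s, intN S (P k * (S.X (a k) f * S.X (e k) g)))
    (f g : T.B) (t : ℝ) :
    HasDerivAt (fun t => b (F.U hc t f) (F.U hc t g))
      (b (F.U hc t (T.XB f)) (F.U hc t g) + b (F.U hc t f) (F.U hc t (T.XB g))) t := by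
  simp only [hb, coe_U, Sys.coe_XB, ← Finset.sum_add_distrib]
  exact HasDerivAt.fun_sum fun k _ => hasDerivAt_intN S (F.hasDerivAt_XUNc (a k) f t)
    (F.hasDerivAt_XUNc (e k) g t)

variable {Q : Fin m → Fin m → S.A} {κ q : ℝ} (hQ : T.IsProj Q κ q)

include hQ in
/-- the derivative of the form `⟨Δ f, g⟩` along the flow -/
theorem derD (f g : T.B) (s : ℝ) :
    HasDerivAt (fun t => intN S (T.Dl Q (F.U hc t f) * (F.U hc t g : T.B)))
      (intN S (T.Dl Q (F.U hc s (T.XB f)) * (F.U hc s g : T.B)) +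
        intN S (T.Dl Q (F.U hc s f) * (F.U hc s (T.XB g) : T.B))) s := by
  refine F.derForm hc (b := fun f g => intN S (T.Dl Q f * g))
    (Finset.univ : Finset (Fin m × Fin m)) (fun k => F.v k.1) (fun k => F.v k.2)
    (fun k => Q k.1 k.2) (fun f g => ?_) f g s
  rw [hQ.Dl_symm F.isInt, ← hQ.int_v_v F.isInt, map_sum, Fintype.sum_prod_type]
  refine Finset.sum_congr rfl fun i _ => ?_
  rw [map_sum]
  refine Finset.sum_congr rfl fun j _ => ?_
  rw [F.hv, F.hv]

include hQ in
/-- the derivative of the form `⟨E f, g⟩` along the flow -/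
theorem derE (f g : T.B) (s : ℝ) :
    HasDerivAt (fun t => intN S (T.El Q (F.U hc t f) * (F.U hc t g : T.B)))
      (intN S (T.El Q (F.U hc s (T.XB f)) * (F.U hc s g : T.B)) +
        intN S (T.El Q (F.U hc s f) * (F.U hc s (T.XB g) : T.B))) s := by
  refine F.derForm hc (b := fun f g => intN S (T.El Q f * g))
    (Finset.univ : Finset (Fin m × Fin m)) (fun k => F.h k.1) (fun k => F.v k.2)
    (fun k => (-c) • Q k.1 k.2) (fun f g => ?_) f g s
  have h1 := hQ.int_h_v F.isInt f g
  rw [← hQ.El_adj F.isInt] at h1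
  rw [← neg_inj, ← h1, map_sum, Fintype.sum_prod_type, ← Finset.sum_neg_distrib]
  refine Finset.sum_congr rfl fun i _ => ?_
  rw [map_sum, ← Finset.sum_neg_distrib]
  refine Finset.sum_congr rfl fun j _ => ?_
  rw [F.hv, F.hh, smul_mul_assoc, smul_mul_assoc, mul_smul_comm, map_smul, map_smul, neg_smul,
    neg_neg]

include hQ in
/-- the derivative of the form `⟨S f, g⟩` along the flow -/
theorem derS (f g : T.B) (s : ℝ) :
    HasDerivAt (fun t => intN S (T.Sl Q (F.U hc t f) * (F.U hc t g : T.B)))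
      (intN S (T.Sl Q (F.U hc s (T.XB f)) * (F.U hc s g : T.B)) +
        intN S (T.Sl Q (F.U hc s f) * (F.U hc s (T.XB g) : T.B))) s := by
  refine F.derForm hc (b := fun f g => intN S (T.Sl Q f * g))
    (Finset.univ : Finset (Fin m × Fin m)) (fun k => F.h k.1) (fun k => F.h k.2)
    (fun k => (c * c) • Q k.1 k.2) (fun f g => ?_) f g s
  rw [hQ.Sl_symm F.isInt, ← hQ.int_h_h F.isInt, map_sum, Fintype.sum_prod_type]
  refine Finset.sum_congr rfl fun i _ => ?_
  rw [map_sum]
  refine Finset.sum_congr rfl fun j _ => ?_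
  rw [F.hh, F.hh, smul_mul_smul_comm, mul_smul_comm, smul_mul_assoc]

/-- the pairing is definite -/
theorem ip_definite {f : T.B} (h : T.ipB (intN S) f f = 0) : f = 0 := by
  rw [Sys.ipB_apply, intN_apply] at h
  have hc : Continuous fun p : N => ((f : S.A) : C(N, ℝ)) p * ((f : S.A) : C(N, ℝ)) p :=
    ((f : S.A) : C(N, ℝ)).continuous.mul ((f : S.A) : C(N, ℝ)).continuous
  by_contra hne
  have h3 : ∃ p, ((f : S.A) : C(N, ℝ)) p ≠ 0 := by
    by_contra hcon
    push Not at hcon
    apply hne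
    apply Subtype.ext
    apply Subtype.ext
    ext p
    exact hcon p
  obtain ⟨p, hp⟩ := h3
  have h4 := hc.integral_pos_of_hasCompactSupport_nonneg_nonzero (μ := μ)
    (HasCompactSupport.of_compactSpace _) (fun p => mul_self_nonneg _) (mul_self_ne_zero.2 hp)
  exact absurd h h4.ne'

theorem ip_ext {f g : T.B} (h : ∀ k, T.ipB (intN S) f k = T.ipB (intN S) g k) : f = g := by
  rw [← sub_eq_zero]
  refine F.ip_definite ?_
  have h1 : T.ipB (intN S) (f - g) (f - g) =
      T.ipB (intN S) f (f - g) - T.ipB (intN S) g (f - g) := by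
    rw [← LinearMap.sub_apply, ← map_sub]
  rw [h1, h, sub_self]

include hQ in
/-- the operators `C` commute with the flow -/
theorem C_U (t : ℝ) (f : T.B) : (Sys.lad1 hQ F.isInt).C (F.U hc t f) =
    F.U hc t ((Sys.lad1 hQ F.isInt).C f) := by
  set L := Sys.lad1 hQ F.isInt with hL
  have hC : ∀ f g : T.B, T.ipB (intN S) (L.C f) g =
      intN S (T.Sl Q f * (g : S.A)) - κ * intN S (T.Dl Q f * (g : S.A)) := by
    intro f g
    rw [Lad1.C_apply, map_sub, map_smul, LinearMap.sub_apply, LinearMap.smul_apply, smul_eq_mul]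
    rfl
  have key : ∀ g : T.B, T.ipB (intN S) (L.C (F.U hc t f)) (F.U hc t g) =
      T.ipB (intN S) (L.C f) g := by
    intro g
    have h1 : ∀ s, HasDerivAt (fun t => T.ipB (intN S) (L.C (F.U hc t f)) (F.U hc t g)) 0 s := by
      intro s
      have h2 := (F.derS hc hQ f g s).sub ((F.derD hc hQ f g s).const_mul κ)
      simp only [hC]
      refine h2.congr_deriv ?_
      have h3 := (T.lad F.isInt).skew (L.C (F.U hc s f)) (F.U hc s g)
      have h3' : T.ipB (intN S) (T.XB (L.C (F.U hc s f))) (F.U hc s g) =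
        - T.ipB (intN S) (L.C (F.U hc s f)) (T.XB (F.U hc s g)) := h3
      rw [L.X_C, F.X_U, F.X_U, hC, hC] at h3'
      linarith
    have h4 := const_of_deriv h1 t 0
    simp only [F.U_zero] at h4
    exact h4
  refine F.ip_ext fun k => ?_
  have h5 := key (F.U hc (-t) k)
  have h6 : F.U hc t (F.U hc (-t) k) = k := by
    rw [← F.U_add, add_neg_cancel, F.U_zero]
  rw [h6] at h5
  rw [h5, ← F.iso hc t, h6]

/-- the operator `Λ` commutes with the flow -/
theorem Lam_U (t : ℝ) (f : T.B) : (T.lad F.isInt).Lam (F.U hc t f) =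
    F.U hc t ((T.lad F.isInt).Lam f) := by
  rw [Lad.Lam_apply, Lad.Lam_apply, map_add, map_add, map_neg]
  congr 1
  · congr 1
    · congr 1
      change T.XB (T.XB (F.U hc t f)) = F.U hc t (T.XB (T.XB f))
      rw [F.X_U, F.X_U]
    · exact F.C_U hc T.isProj_Q t f
  · exact F.C_U hc T.isProj_P t f

/-- the operator `Λ_L` commutes with the flow -/
theorem LamL_U (t : ℝ) (f : T.B) : (T.lad F.isInt).LamL (F.U hc t f) =
    F.U hc t ((T.lad F.isInt).LamL f) := by
  rw [Lad.LamL_apply, Lad.LamL_apply, map_add, map_neg]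
  congr 1
  · congr 1
    change T.XB (T.XB (F.U hc t f)) = F.U hc t (T.XB (T.XB f))
    rw [F.X_U, F.X_U]
  · exact F.C_U hc T.isProj_P t f

/-- **the flow on the ladder algebra** -/
def flw : Flw (T.lad F.isInt) where
  U := F.U hc
  zero := F.U_zero hc
  add := F.U_add hc
  iso := F.iso hc
  der f g := by
    have h := F.der hc f g 0
    rw [F.U_zero] at h
    exact h
  dΔ1 f g := by
    have h := F.derD hc T.isProj_Q f g 0
    simp only [F.U_zero] at h
    exact h
  dE1 f g := by
    have h := F.derE hc T.isProj_Q f g 0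
    simp only [F.U_zero] at h
    exact h
  dS1 f g := by
    have h := F.derS hc T.isProj_Q f g 0
    simp only [F.U_zero] at h
    exact h
  dΔ2 f g := by
    have h := F.derD hc T.isProj_P f g 0
    simp only [F.U_zero] at h
    exact h
  dE2 f g := by
    have h := F.derE hc T.isProj_P f g 0
    simp only [F.U_zero] at h
    exact h
  dS2 f g := by
    have h := F.derS hc T.isProj_P f g 0
    simp only [F.U_zero] at h
    exact h

end FitC

end Vale.Agent.P207.H266
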