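import Vale.Agent.P207.H391.PiLad
import Vale.Agent.P207.Low.Sub

/-!
# P207, block PI: restriction of the flow to a stable submodule of the ladder algebra
-/

noncomputable section

universe u

namespace Vale.Agent.P207.H266

open Vale.Agent.P207.H662 Vale.Agent.P207.Low Vale.Agent.P207.H391

variable {W : Type u} [AddCommGroup W] [Module ℝ W] {L : Lad W}

/-- **restriction of the flow** to a submodule which is stable under the ladder operators and
under the flow -/
def flwSub (Φ : Flw L) (N : Submodule ℝ W) (hN : Stable L N) (hU : ∀ t, ∀ u ∈ N, Φ.U t u ∈ N) :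
    Flw (sub L N hN) where
  U t := (Φ.U t).restrict (hU t)
  zero f := Subtype.ext (Φ.zero f)
  add s t f := Subtype.ext (Φ.add s t f)
  iso t f g := Φ.iso t f g
  der f g := Φ.der f g
  dΔ1 f g := Φ.dΔ1 f g
  dE1 f g := Φ.dE1 f g
  dS1 f g := Φ.dS1 f g
  dΔ2 f g := Φ.dΔ2 f g
  dE2 f g := Φ.dE2 f g
  dS2 f g := Φ.dS2 f g

variable {Φ : Flw L} {N : Submodule ℝ W} {hN : Stable L N} {hU : ∀ t, ∀ u ∈ N, Φ.U t u ∈ N}

@[simp] theorem coe_flwSub (t : ℝ) (f : N) :
    (((flwSub Φ N hN hU).U t f : N) : W) = Φ.U t (f : W) := rfl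

end Vale.Agent.P207.H266
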